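import Vale.Agent.H35.SepQuot.Core

namespace Vale.Agent.H35.SepQuot

open Set Filter Topology TopologicalSpace

variable {𝕜 X : Type*} [RCLike 𝕜] [NormedAddCommGroup X] [NormedSpace 𝕜 X]

theorem exists_functional_of_notMem (V : Submodule 𝕜 X) (hV : IsClosed (V : Set X)) {x : X}
    (hx : x ∉ V) : ∃ φ : X →L[𝕜] 𝕜, (∀ y ∈ V, φ y = 0) ∧ φ x = 1 := by
  have := hV
  have hne : ‖(V.mkQ x : X ⧸ V)‖ ≠ 0 := by
    rw [norm_ne_zero_iff]
    intro h
    exact hx ((Submodule.Quotient.mk_eq_zero V).1 h)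
  obtain ⟨ψ, -, hψ⟩ := exists_dual_vector 𝕜 (V.mkQ x) hne
  refine ⟨((‖(V.mkQ x : X ⧸ V)‖ : 𝕜)⁻¹) • (ψ.comp V.mkQL), ?_, ?_⟩
  · intro y hy
    have h0 : V.mkQ y = 0 := (Submodule.Quotient.mk_eq_zero V).2 hy
    simp [h0]
  · have hne' : ((‖(V.mkQ x : X ⧸ V)‖ : ℝ) : 𝕜) ≠ 0 := by
      exact_mod_cast hne
    have h2 : (((‖(V.mkQ x : X ⧸ V)‖ : 𝕜)⁻¹) • (ψ.comp V.mkQL)) x
        = ((‖(V.mkQ x : X ⧸ V)‖ : 𝕜)⁻¹) * ψ (V.mkQ x) := rfl
    rw [h2, hψ]
    exact inv_mul_cancel₀ hne'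

theorem hasSepQuotient_of_chain (W : ℕ → Submodule 𝕜 X) (hmono : Monotone W)
    (hcl : ∀ n, IsClosed (W n : Set X)) (hne : ∀ n, W n ≠ ⊤)
    (hd : Dense (⋃ n, (W n : Set X))) : HasSepQuotient 𝕜 X := by
  classical
  have hstep : ∀ n, ∃ m, n < m ∧ W n < W m := by
    intro n
    by_contra hcon0
    have hcon : ∀ m, n < m → ¬ W n < W m := fun m hm hlt => hcon0 ⟨m, hm, hlt⟩
    have hall : ∀ m, W m ≤ W n := by
      intro m
      rcases le_or_gt m n with h | h
      · exact hmono h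
      · have h1 := hmono h.le
        have h2 := hcon m h
        by_contra h3
        exact h2 (lt_of_le_not_ge h1 h3)
    have hsub : (⋃ m, (W m : Set X)) ⊆ W n := iUnion_subset fun m => hall m
    have hdn : Dense (W n : Set X) := hd.mono hsub
    have huniv : (W n : Set X) = univ := by
      rw [← (hcl n).closure_eq]
      exact hdn.closure_eq
    exact hne n (SetLike.coe_injective (by simpa using huniv))
  choose g hg1 hg2 using hstep
  let G : ℕ → ℕ := fun k => g^[k] 0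
  have hG : ∀ k, W (G k) < W (G (k + 1)) := by
    intro k
    simp only [G, Function.iterate_succ_apply']
    exact hg2 _
  have hGmono : StrictMono G := by
    apply strictMono_nat_of_lt_succ
    intro k
    simp only [G, Function.iterate_succ_apply']
    exact hg1 _
  have hx : ∀ k, ∃ xk ∈ W (G (k + 1)), xk ∉ W (G k) := fun k => SetLike.exists_of_lt (hG k)
  choose x hx1 hx2 using hx
  have hφ : ∀ k, ∃ φk : X →L[𝕜] 𝕜, (∀ y ∈ W (G k), φk y = 0) ∧ φk (x k) = 1 :=
    fun k => exists_functional_of_notMem (W (G k)) (hcl _) (hx2 k)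
  choose φ hφ1 hφ2 using hφ
  apply hasSepQuotient_of_triangular φ x
  · intro n j hnj
    exact hφ1 j _ (hmono (hGmono.monotone (Nat.succ_le_of_lt hnj)) (hx1 n))
  · exact hφ2
  · apply hd.mono
    apply iUnion_subset
    intro n y hy
    apply mem_iUnion.2 ⟨n, ?_⟩
    intro j hj
    exact hφ1 j y (hmono (hj.trans (hGmono.id_le j)) hy)

theorem exists_chain_of_hasSepQuotient (h : HasSepQuotient 𝕜 X) :
    ∃ W : ℕ → Submodule 𝕜 X, Monotone W ∧ (∀ n, IsClosed (W n : Set X)) ∧ (∀ n, W n ≠ ⊤) ∧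
      Dense (⋃ n, (W n : Set X)) := by
  classical
  obtain ⟨M, hMcl, hsep, hinf⟩ := h
  have := hMcl
  obtain ⟨d, hd⟩ := TopologicalSpace.exists_dense_seq (X ⧸ M)
  let F : ℕ → Submodule 𝕜 (X ⧸ M) := fun n => Submodule.span 𝕜 (d '' (Set.Iio n))
  have hFfd : ∀ n, FiniteDimensional 𝕜 (F n) :=
    fun n => FiniteDimensional.span_of_finite 𝕜 ((Set.finite_Iio n).image d)
  have hFcl : ∀ n, IsClosed (F n : Set (X ⧸ M)) := by
    intro n
    have := hFfd n
    exact Submodule.closed_of_finiteDimensional _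
  refine ⟨fun n => (F n).comap M.mkQ, ?_, ?_, ?_, ?_⟩
  · intro a b hab
    apply Submodule.comap_mono
    apply Submodule.span_mono
    apply image_mono
    exact Iio_subset_Iio hab
  · intro n
    exact (hFcl n).preimage (M.mkQL).continuous
  · intro n htop
    have hF : F n = ⊤ := by
      apply top_unique
      intro y _
      obtain ⟨z, rfl⟩ := Submodule.mkQ_surjective M y
      have htop' : (F n).comap M.mkQ = ⊤ := htop
      have : z ∈ (F n).comap M.mkQ := by
        rw [htop']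
        trivial
      exact this
    have h1 : FiniteDimensional 𝕜 (⊤ : Submodule 𝕜 (X ⧸ M)) := by
      rw [← hF]
      exact hFfd n
    exact hinf (LinearEquiv.finiteDimensional (Submodule.topEquiv (R := 𝕜) (M := X ⧸ M)))
  · have hsub : M.mkQ ⁻¹' (Set.range d) ⊆ ⋃ n, (((F n).comap M.mkQ : Submodule 𝕜 X) : Set X) := by
      rintro y ⟨k, hk⟩
      apply mem_iUnion.2 ⟨k + 1, ?_⟩
      show M.mkQ y ∈ F (k + 1)
      rw [← hk]
      exact Submodule.subset_span ⟨k, Nat.lt_succ_self k, rfl⟩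
    have hdense : Dense (M.mkQ ⁻¹' (Set.range d)) :=
      Dense.preimage hd M.isOpenMap_mkQ
    exact hdense.mono hsub

end Vale.Agent.H35.SepQuot
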