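import Vale.Agent.H35.SepQuot.Defs

namespace Vale.Agent.H35.SepQuot

open Set Filter Topology TopologicalSpace

variable {𝕜 X : Type*} [RCLike 𝕜] [NormedAddCommGroup X] [NormedSpace 𝕜 X]

theorem hasSepQuotient_of_triangular
    (φ : ℕ → X →L[𝕜] 𝕜) (x : ℕ → X)
    (h0 : ∀ n j, n < j → φ j (x n) = 0) (h1 : ∀ n, φ n (x n) = 1)
    (hd : Dense (⋃ n, {y : X | ∀ j, n ≤ j → φ j y = 0})) :
    HasSepQuotient 𝕜 X := by
  classical
  set M : Submodule 𝕜 X := ⨅ j, LinearMap.ker (φ j : X →ₗ[𝕜] 𝕜) with hM
  have hMmem : ∀ y : X, y ∈ M ↔ ∀ j, φ j y = 0 := by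
    intro y
    simp [hM, Submodule.mem_iInf]
  have hMcl : IsClosed (M : Set X) := by
    have : (M : Set X) = ⋂ j, {y : X | φ j y = 0} := by
      ext y
      simp [hMmem]
    rw [this]
    exact isClosed_iInter fun j => isClosed_eq (φ j).continuous continuous_const
  have : IsClosed (M : Set X) := hMcl
  refine ⟨M, hMcl, ?_, ?_⟩
  · -- separability
    have hspan : ∀ n (y : X), (∀ j, n ≤ j → φ j y = 0) →
        M.mkQ y ∈ Submodule.span 𝕜 (Set.range fun k => M.mkQ (x k)) := by
      intro n
      induction n with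
      | zero =>
        intro y hy
        have : y ∈ M := (hMmem y).2 fun j => hy j (Nat.zero_le j)
        have h0' : M.mkQ y = 0 := by
          simpa using (Submodule.Quotient.mk_eq_zero M).2 this
        rw [h0']
        exact Submodule.zero_mem _
      | succ n ih =>
        intro y hy
        have hy' : ∀ j, n ≤ j → φ j (y - φ n y • x n) = 0 := by
          intro j hj
          rcases Nat.eq_or_lt_of_le hj with rfl | hlt
          · simp [h1]
          · have := hy j hlt
            simp [this, h0 n j hlt]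
        have h2 := ih _ hy'
        have h3 : M.mkQ (x n) ∈ Submodule.span 𝕜 (Set.range fun k => M.mkQ (x k)) :=
          Submodule.subset_span ⟨n, rfl⟩
        have h4 : M.mkQ y = M.mkQ (y - φ n y • x n) + φ n y • M.mkQ (x n) := by
          simp
        rw [h4]
        exact Submodule.add_mem _ h2 (Submodule.smul_mem _ _ h3)
    have hsep : IsSeparable (Submodule.span 𝕜 (Set.range fun k => M.mkQ (x k)) : Set (X ⧸ M)) :=
      (Set.countable_range _).isSeparable.span
    have himg : Dense (M.mkQ '' (⋃ n, {y : X | ∀ j, n ≤ j → φ j y = 0})) := by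
      have hsurj : Function.Surjective M.mkQ := Submodule.mkQ_surjective M
      exact hsurj.denseRange.dense_image (M.mkQL).continuous hd
    have hsub : M.mkQ '' (⋃ n, {y : X | ∀ j, n ≤ j → φ j y = 0}) ⊆
        (Submodule.span 𝕜 (Set.range fun k => M.mkQ (x k)) : Set (X ⧸ M)) := by
      rintro _ ⟨y, hy, rfl⟩
      rcases mem_iUnion.1 hy with ⟨n, hn⟩
      exact hspan n y hn
    have h5 : IsSeparable (Set.univ : Set (X ⧸ M)) := by
      have := (hsep.mono hsub).closure
      rwa [himg.closure_eq] at this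
    exact isSeparable_univ_iff.1 h5
  · -- infinite dimension
    intro hfd
    let Z : ℕ → Submodule 𝕜 X := fun n => ⨅ (j : ℕ) (_ : n ≤ j), LinearMap.ker (φ j : X →ₗ[𝕜] 𝕜)
    have hZmem : ∀ n (y : X), y ∈ Z n ↔ ∀ j, n ≤ j → φ j y = 0 := by
      intro n y
      simp [Z, Submodule.mem_iInf]
    have hZmono : Monotone fun n => (Z n).map M.mkQ := by
      intro a b hab
      apply Submodule.map_mono
      intro y hy
      rw [hZmem] at hy ⊢
      exact fun j hj => hy j (hab.trans hj)
    obtain ⟨n, hn⟩ := (monotone_stabilizes_iff_noetherian.mpr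
      (inferInstance : IsNoetherian 𝕜 (X ⧸ M))) ⟨fun n => (Z n).map M.mkQ, hZmono⟩
    have hx : M.mkQ (x n) ∈ (Z (n + 1)).map M.mkQ := by
      refine Submodule.mem_map_of_mem ?_
      rw [hZmem]
      intro j hj
      exact h0 n j hj
    have hx' : M.mkQ (x n) ∈ (Z n).map M.mkQ := by
      have := hn (n + 1) (Nat.le_succ n)
      simp only [OrderHom.coe_mk] at this
      rw [this]
      exact hx
    obtain ⟨z, hz, hzx⟩ := hx'
    have hzM : z - x n ∈ M := by
      have : M.mkQ (z - x n) = 0 := by
        rw [map_sub, hzx, sub_self]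
      exact (Submodule.Quotient.mk_eq_zero M).1 this
    have h6 := (hMmem _).1 hzM n
    have h7 := (hZmem n z).1 hz n le_rfl
    rw [map_sub, h7, h1 n] at h6
    norm_num at h6

end Vale.Agent.H35.SepQuot
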