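import Mathlib

namespace Vale.Agent.H35.SepQuot

/-- A topological vector space `X` over `𝕜` has a separable infinite-dimensional quotient:
there is a closed linear subspace `M` of `X` such that the quotient space `X ⧸ M`
(with the quotient topology) is separable and is not finite-dimensional over `𝕜`. -/
def HasSepQuotient (𝕜 X : Type*) [Field 𝕜] [AddCommGroup X] [Module 𝕜 X]
    [TopologicalSpace X] : Prop :=
  ∃ M : Submodule 𝕜 X, IsClosed (M : Set X) ∧
    TopologicalSpace.SeparableSpace (X ⧸ M) ∧ ¬ FiniteDimensional 𝕜 (X ⧸ M)

end Vale.Agent.H35.SepQuot
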