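import Vale.Agent.H35.SepQuot.Chain

namespace Vale.Agent.H35.SepQuot

open Set Filter Topology TopologicalSpace Metric

section approx

variable {𝕜 X Z : Type*} [RCLike 𝕜] [NormedAddCommGroup X] [NormedSpace 𝕜 X]
  [NormedAddCommGroup Z] [NormedSpace 𝕜 Z] [CompleteSpace Z]

theorem surjective_of_approx (f : Z →L[𝕜] X) (C : ℝ) (hC0 : 0 ≤ C)
    (hC : ∀ y, ∃ x, dist (f x) y ≤ 1 / 2 * ‖y‖ ∧ ‖x‖ ≤ C * ‖y‖) : Function.Surjective f := by
  choose g hg using hC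
  let h y := y - f (g y)
  have hle : ∀ y, ‖h y‖ ≤ 1 / 2 * ‖y‖ := by
    intro y
    rw [← dist_eq_norm, dist_comm]
    exact (hg y).1
  intro y
  have hnle : ∀ n : ℕ, ‖h^[n] y‖ ≤ (1 / 2) ^ n * ‖y‖ := by
    intro n
    induction n with
    | zero => simp only [one_div, one_mul, Function.iterate_zero_apply, pow_zero, le_rfl]
    | succ n IH =>
      rw [Function.iterate_succ']
      apply le_trans (hle _) _
      rw [pow_succ', mul_assoc]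
      gcongr
  let u n := g (h^[n] y)
  have ule : ∀ n, ‖u n‖ ≤ (1 / 2) ^ n * (C * ‖y‖) := fun n ↦ by
    apply le_trans (hg _).2
    calc
      C * ‖h^[n] y‖ ≤ C * ((1 / 2) ^ n * ‖y‖) := by gcongr; exact hnle n
      _ = (1 / 2) ^ n * (C * ‖y‖) := by ring
  have sNu : Summable fun n => ‖u n‖ := by
    refine .of_nonneg_of_le (fun n => norm_nonneg _) ule ?_
    exact Summable.mul_right _ (summable_geometric_of_lt_one (by simp) (by norm_num))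
  have su : Summable u := sNu.of_norm
  let x := tsum u
  have fsumeq : ∀ n : ℕ, f (∑ i ∈ Finset.range n, u i) = y - h^[n] y := by
    intro n
    induction n with
    | zero => simp [f.map_zero]
    | succ n IH => rw [Finset.sum_range_succ, f.map_add, IH, Function.iterate_succ_apply', sub_add]
  have : Tendsto (fun n => ∑ i ∈ Finset.range n, u i) atTop (𝓝 x) := su.hasSum.tendsto_sum_nat
  have L₁ : Tendsto (fun n => f (∑ i ∈ Finset.range n, u i)) atTop (𝓝 (f x)) :=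
    (f.continuous.tendsto _).comp this
  simp only [fsumeq] at L₁
  have L₂ : Tendsto (fun n => y - h^[n] y) atTop (𝓝 (y - 0)) := by
    refine tendsto_const_nhds.sub ?_
    rw [tendsto_iff_norm_sub_tendsto_zero]
    simp only [sub_zero]
    refine squeeze_zero (fun _ => norm_nonneg _) hnle ?_
    rw [← zero_mul ‖y‖]
    refine (_root_.tendsto_pow_atTop_nhds_zero_of_lt_one ?_ ?_).mul tendsto_const_nhds <;> norm_num
  have feq : f x = y - 0 := tendsto_nhds_unique L₁ L₂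
  rw [sub_zero] at feq
  exact ⟨x, feq⟩

end approx

section main

variable {𝕜 X Z : Type*} [RCLike 𝕜] [NormedAddCommGroup X] [NormedSpace 𝕜 X]
  [NormedAddCommGroup Z] [NormedSpace 𝕜 Z]

/-- The identity minus the finite-rank operator `∑ i < n, φ i (·) • u i`. -/
noncomputable def projAlong (n : ℕ) (φ : ℕ → X →L[𝕜] 𝕜) (u : ℕ → X) : X →L[𝕜] X :=
  ContinuousLinearMap.id 𝕜 X - ∑ i ∈ Finset.range n, (φ i).smulRight (u i)

theorem projAlong_apply (n : ℕ) (φ : ℕ → X →L[𝕜] 𝕜) (u : ℕ → X) (x : X) :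
    projAlong n φ u x = x - ∑ i ∈ Finset.range n, φ i x • u i := by
  simp [projAlong]

/-- Biorthogonality of the first `n` functionals and vectors. -/
def Biorth (n : ℕ) (φ : ℕ → X →L[𝕜] 𝕜) (u : ℕ → X) : Prop :=
  ∀ i < n, ∀ j < n, φ i (u j) = if i = j then 1 else 0

theorem phi_projAlong {n : ℕ} {φ : ℕ → X →L[𝕜] 𝕜} {u : ℕ → X} (hb : Biorth n φ u) (x : X)
    {i : ℕ} (hi : i < n) : φ i (projAlong n φ u x) = 0 := by
  rw [projAlong_apply, map_sub, map_sum]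
  have : ∑ j ∈ Finset.range n, φ i (φ j x • u j) = φ i x := by
    rw [Finset.sum_eq_single i]
    · simp [hb i hi i hi]
    · intro j hj hji
      have hj' : j < n := Finset.mem_range.1 hj
      simp [hb i hi j hj', Ne.symm hji]
    · intro h
      exact absurd (Finset.mem_range.2 hi) h
  rw [this, sub_self]

theorem projAlong_u {n : ℕ} {φ : ℕ → X →L[𝕜] 𝕜} {u : ℕ → X} (hb : Biorth n φ u)
    {j : ℕ} (hj : j < n) : projAlong n φ u (u j) = 0 := by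
  rw [projAlong_apply]
  have : ∑ i ∈ Finset.range n, φ i (u j) • u i = u j := by
    rw [Finset.sum_eq_single j]
    · simp [hb j hj j hj]
    · intro i hi hij
      have hi' : i < n := Finset.mem_range.1 hi
      simp [hb i hi' j hj, hij]
    · intro h
      exact absurd (Finset.mem_range.2 hj) h
  rw [this, sub_self]

theorem projAlong_of_ker {n : ℕ} {φ : ℕ → X →L[𝕜] 𝕜} {u : ℕ → X} {x : X}
    (hx : ∀ i < n, φ i x = 0) : projAlong n φ u x = x := by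
  rw [projAlong_apply]
  have : ∑ i ∈ Finset.range n, φ i x • u i = 0 := by
    apply Finset.sum_eq_zero
    intro i hi
    simp [hx i (Finset.mem_range.1 hi)]
  rw [this, sub_zero]

theorem approx_first (A : Z →L[𝕜] X) (P : X →L[𝕜] X) {δ : ℝ} (hδ : 0 < δ)
    (H : ∀ y : X, ∀ t : ℝ, 0 < t → ‖(t : 𝕜) • P y‖ < δ →
      (t : 𝕜) • P y ∈ closure (P '' (A '' closedBall 0 1)))
    (y : X) (hy : y ≠ 0) :
    ∃ x₁ : Z, ‖x₁‖ ≤ 2 * (‖P‖ + 1) / δ * ‖y‖ ∧ ‖P y - P (A x₁)‖ ≤ ‖y‖ / 4 := by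
  have hy0 : 0 < ‖y‖ := norm_pos_iff.2 hy
  have ha0 : 0 ≤ ‖P‖ := norm_nonneg _
  obtain ⟨t, ht⟩ : ∃ t : ℝ, t = δ / (2 * (‖P‖ + 1) * ‖y‖) := ⟨_, rfl⟩
  have ht0 : 0 < t := by rw [ht]; positivity
  have htinv : t⁻¹ = 2 * (‖P‖ + 1) / δ * ‖y‖ := by
    rw [ht]
    field_simp
  have hsmall : ‖(t : 𝕜) • P y‖ < δ := by
    rw [norm_smul, RCLike.norm_ofReal, abs_of_pos ht0]
    have h1 : ‖P y‖ ≤ ‖P‖ * ‖y‖ := P.le_opNorm y
    have h2 : t * ‖P y‖ ≤ t * (‖P‖ * ‖y‖) := by gcongr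
    have h3 : t * (‖P‖ * ‖y‖) = δ * (‖P‖ / (2 * (‖P‖ + 1))) := by
      rw [ht]
      field_simp
    have h4 : ‖P‖ / (2 * (‖P‖ + 1)) < 1 := by
      rw [div_lt_one (by positivity)]
      linarith
    calc t * ‖P y‖ ≤ δ * (‖P‖ / (2 * (‖P‖ + 1))) := by rw [← h3]; exact h2
      _ < δ * 1 := by gcongr
      _ = δ := mul_one δ
  have hmem := H y t ht0 hsmall
  have hη₁ : 0 < δ / (8 * (‖P‖ + 1)) := by positivity
  obtain ⟨_, ⟨_, ⟨z₁, hz₁, rfl⟩, rfl⟩, hz₁'⟩ := Metric.mem_closure_iff.1 hmem _ hη₁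
  have hz₁n : ‖z₁‖ ≤ 1 := by simpa using hz₁
  have htne : (t : 𝕜) ≠ 0 := by exact_mod_cast ht0.ne'
  refine ⟨(t⁻¹ : 𝕜) • z₁, ?_, ?_⟩
  · rw [norm_smul, norm_inv, RCLike.norm_ofReal, abs_of_pos ht0, htinv]
    calc 2 * (‖P‖ + 1) / δ * ‖y‖ * ‖z₁‖ ≤ 2 * (‖P‖ + 1) / δ * ‖y‖ * 1 := by gcongr
      _ = 2 * (‖P‖ + 1) / δ * ‖y‖ := mul_one _
  · have e1 : P y - P (A ((t⁻¹ : 𝕜) • z₁)) = (t⁻¹ : 𝕜) • ((t : 𝕜) • P y - P (A z₁)) := by
      rw [map_smul, map_smul, smul_sub, smul_smul, inv_mul_cancel₀ htne, one_smul]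
    rw [e1, norm_smul, norm_inv, RCLike.norm_ofReal, abs_of_pos ht0, htinv]
    have e2 : ‖(t : 𝕜) • P y - P (A z₁)‖ ≤ δ / (8 * (‖P‖ + 1)) := by
      rw [← dist_eq_norm]
      exact hz₁'.le
    calc 2 * (‖P‖ + 1) / δ * ‖y‖ * ‖(t : 𝕜) • P y - P (A z₁)‖
        ≤ 2 * (‖P‖ + 1) / δ * ‖y‖ * (δ / (8 * (‖P‖ + 1))) := by gcongr
      _ = ‖y‖ / 4 := by
        field_simp
        ring

theorem approx_second (A : Z →L[𝕜] X) (n : ℕ) (φ : ℕ → X →L[𝕜] 𝕜) (u : ℕ → X) (w : ℕ → Z)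
    {η : ℝ} (hw : ∀ i, dist (u i) (A (w i)) ≤ η) (r : X) :
    ‖A (∑ i ∈ Finset.range n, φ i r • w i) - ∑ i ∈ Finset.range n, φ i r • u i‖
        ≤ (∑ i ∈ Finset.range n, ‖φ i‖) * η * ‖r‖ ∧
      ‖∑ i ∈ Finset.range n, φ i r • w i‖ ≤ (∑ i ∈ Finset.range n, ‖φ i‖ * ‖w i‖) * ‖r‖ := by
  constructor
  · have e1 : A (∑ i ∈ Finset.range n, φ i r • w i) - ∑ i ∈ Finset.range n, φ i r • u i
        = ∑ i ∈ Finset.range n, φ i r • (A (w i) - u i) := by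
      rw [map_sum, ← Finset.sum_sub_distrib]
      apply Finset.sum_congr rfl
      intro i _
      rw [map_smul, smul_sub]
    rw [e1]
    calc ‖∑ i ∈ Finset.range n, φ i r • (A (w i) - u i)‖
        ≤ ∑ i ∈ Finset.range n, ‖φ i r • (A (w i) - u i)‖ := norm_sum_le _ _
      _ ≤ ∑ i ∈ Finset.range n, ‖φ i‖ * ‖r‖ * η := by
        apply Finset.sum_le_sum
        intro i _
        rw [norm_smul]
        have h1 : ‖φ i r‖ ≤ ‖φ i‖ * ‖r‖ := (φ i).le_opNorm r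
        have h2 : ‖A (w i) - u i‖ ≤ η := by
          rw [← dist_eq_norm, dist_comm]
          exact hw i
        exact mul_le_mul h1 h2 (norm_nonneg _) (by positivity)
      _ = (∑ i ∈ Finset.range n, ‖φ i‖) * η * ‖r‖ := by
        rw [Finset.sum_mul, Finset.sum_mul]
        apply Finset.sum_congr rfl
        intro i _
        ring
  · calc ‖∑ i ∈ Finset.range n, φ i r • w i‖
        ≤ ∑ i ∈ Finset.range n, ‖φ i r • w i‖ := norm_sum_le _ _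
      _ ≤ ∑ i ∈ Finset.range n, ‖φ i‖ * ‖r‖ * ‖w i‖ := by
        apply Finset.sum_le_sum
        intro i _
        rw [norm_smul]
        have h1 : ‖φ i r‖ ≤ ‖φ i‖ * ‖r‖ := (φ i).le_opNorm r
        exact mul_le_mul_of_nonneg_right h1 (norm_nonneg _)
      _ = (∑ i ∈ Finset.range n, ‖φ i‖ * ‖w i‖) * ‖r‖ := by
        rw [Finset.sum_mul]
        apply Finset.sum_congr rfl
        intro i _
        ring

theorem approx_combine (A : Z →L[𝕜] X) (n : ℕ) (φ : ℕ → X →L[𝕜] 𝕜) (u : ℕ → X)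
    {T b E η : ℝ} (hT : 0 ≤ T) (hb : 0 ≤ b) (hE : 0 ≤ E)
    (hη : b * (1 + ‖A‖ * T) * η ≤ 1 / 4)
    (y : X) (x₁ x₂ : Z)
    (h1 : ‖x₁‖ ≤ T * ‖y‖)
    (h2 : ‖projAlong n φ u y - projAlong n φ u (A x₁)‖ ≤ ‖y‖ / 4)
    (h3 : ‖A x₂ - ∑ i ∈ Finset.range n, φ i (y - A x₁) • u i‖ ≤ b * η * ‖y - A x₁‖)
    (h4 : ‖x₂‖ ≤ E * ‖y - A x₁‖) :
    dist (A (x₁ + x₂)) y ≤ 1 / 2 * ‖y‖ ∧ ‖x₁ + x₂‖ ≤ (T + E * (1 + ‖A‖ * T)) * ‖y‖ := by
  have hrn : ‖y - A x₁‖ ≤ (1 + ‖A‖ * T) * ‖y‖ := by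
    calc ‖y - A x₁‖ ≤ ‖y‖ + ‖A x₁‖ := norm_sub_le _ _
      _ ≤ ‖y‖ + ‖A‖ * ‖x₁‖ := by gcongr; exact A.le_opNorm x₁
      _ ≤ ‖y‖ + ‖A‖ * (T * ‖y‖) := by gcongr
      _ = (1 + ‖A‖ * T) * ‖y‖ := by ring
  have hPr : projAlong n φ u (y - A x₁) = projAlong n φ u y - projAlong n φ u (A x₁) :=
    map_sub _ _ _
  have hdecomp : y - A x₁ = projAlong n φ u (y - A x₁)
      + ∑ i ∈ Finset.range n, φ i (y - A x₁) • u i := by
    rw [projAlong_apply]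
    abel
  constructor
  · rw [dist_eq_norm]
    have e1 : A (x₁ + x₂) - y = (A x₂ - ∑ i ∈ Finset.range n, φ i (y - A x₁) • u i)
        - projAlong n φ u (y - A x₁) := by
      have h5 : A (x₁ + x₂) - y = A x₂ - (y - A x₁) := by
        rw [map_add]
        abel
      rw [h5]
      nth_rewrite 1 [hdecomp]
      abel
    rw [e1]
    have h6 : b * η * ‖y - A x₁‖ ≤ ‖y‖ / 4 := by
      by_cases hη0 : 0 ≤ η
      · calc b * η * ‖y - A x₁‖ ≤ b * η * ((1 + ‖A‖ * T) * ‖y‖) := by gcongr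
          _ = b * (1 + ‖A‖ * T) * η * ‖y‖ := by ring
          _ ≤ 1 / 4 * ‖y‖ := by gcongr
          _ = ‖y‖ / 4 := by ring
      · have : b * η * ‖y - A x₁‖ ≤ 0 := by
          have h7 : b * η ≤ 0 := mul_nonpos_of_nonneg_of_nonpos hb (not_le.1 hη0).le
          exact mul_nonpos_of_nonpos_of_nonneg h7 (norm_nonneg _)
        linarith [norm_nonneg y]
    calc ‖(A x₂ - ∑ i ∈ Finset.range n, φ i (y - A x₁) • u i) - projAlong n φ u (y - A x₁)‖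
        ≤ ‖A x₂ - ∑ i ∈ Finset.range n, φ i (y - A x₁) • u i‖
          + ‖projAlong n φ u (y - A x₁)‖ := norm_sub_le _ _
      _ ≤ ‖y‖ / 4 + ‖y‖ / 4 := by
        apply add_le_add (h3.trans h6)
        rw [hPr]
        exact h2
      _ = 1 / 2 * ‖y‖ := by ring
  · calc ‖x₁ + x₂‖ ≤ ‖x₁‖ + ‖x₂‖ := norm_add_le _ _
      _ ≤ T * ‖y‖ + E * ((1 + ‖A‖ * T) * ‖y‖) := by
        apply add_le_add h1
        exact h4.trans (by gcongr)
      _ = (T + E * (1 + ‖A‖ * T)) * ‖y‖ := by ring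

theorem exists_small_notMem [CompleteSpace Z] (A : Z →L[𝕜] X) (hd : DenseRange A)
    (hns : ¬ Function.Surjective A)
    (n : ℕ) (φ : ℕ → X →L[𝕜] 𝕜) (u : ℕ → X) (hb : Biorth n φ u) {δ : ℝ} (hδ : 0 < δ) :
    ∃ v : X, ‖v‖ < δ ∧ (∀ i < n, φ i v = 0) ∧
      v ∉ closure ((projAlong n φ u) '' (A '' closedBall 0 1)) := by
  by_contra hcon
  have H : ∀ y : X, ∀ t : ℝ, 0 < t → ‖(t : 𝕜) • projAlong n φ u y‖ < δ →
      (t : 𝕜) • projAlong n φ u y ∈ closure ((projAlong n φ u) '' (A '' closedBall 0 1)) := by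
    intro y t _ hv1
    by_contra hv3
    refine hcon ⟨_, hv1, ?_, hv3⟩
    intro i hi
    rw [map_smul, phi_projAlong hb y hi, smul_zero]
  apply hns
  obtain ⟨T, hT⟩ : ∃ T : ℝ, T = 2 * (‖projAlong n φ u‖ + 1) / δ := ⟨_, rfl⟩
  have hT0 : 0 ≤ T := by rw [hT]; positivity
  obtain ⟨b, hbdef⟩ : ∃ b : ℝ, b = ∑ i ∈ Finset.range n, ‖φ i‖ := ⟨_, rfl⟩
  have hb0 : 0 ≤ b := by rw [hbdef]; exact Finset.sum_nonneg fun i _ => norm_nonneg _
  obtain ⟨η, hηdef⟩ : ∃ η : ℝ, η = 1 / (4 * (b * (1 + ‖A‖ * T) + 1)) := ⟨_, rfl⟩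
  have hηpos : 0 < η := by rw [hηdef]; positivity
  have hη : b * (1 + ‖A‖ * T) * η ≤ 1 / 4 := by
    rw [hηdef, mul_one_div, div_le_iff₀ (by positivity)]
    have : 0 ≤ b * (1 + ‖A‖ * T) := by positivity
    linarith
  have hw : ∀ i, ∃ w : Z, dist (u i) (A w) ≤ η :=
    fun i => (hd.exists_dist_lt (u i) hηpos).imp fun w hw => hw.le
  choose w hw using hw
  obtain ⟨E, hEdef⟩ : ∃ E : ℝ, E = ∑ i ∈ Finset.range n, ‖φ i‖ * ‖w i‖ := ⟨_, rfl⟩
  have hE0 : 0 ≤ E := by rw [hEdef]; exact Finset.sum_nonneg fun i _ => by positivity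
  apply surjective_of_approx A (T + E * (1 + ‖A‖ * T)) (by positivity)
  intro y
  rcases eq_or_ne y 0 with rfl | hy
  · exact ⟨0, by simp, by simp⟩
  obtain ⟨x₁, hx₁a, hx₁b⟩ := approx_first A (projAlong n φ u) hδ H y hy
  have h34 := approx_second A n φ u w hw (y - A x₁)
  refine ⟨x₁ + ∑ i ∈ Finset.range n, φ i (y - A x₁) • w i, ?_⟩
  apply approx_combine A n φ u hT0 hb0 hE0 hη y x₁ _ (by rw [hT]; exact hx₁a) hx₁b
  · rw [hbdef]; exact h34.1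
  · rw [hEdef]; exact h34.2

end main

end Vale.Agent.H35.SepQuot
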