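import Vale.Agent.H35.SepQuot.OpRange

namespace Vale.Agent.H35.SepQuot

open Set Filter Topology TopologicalSpace Metric

section sep

variable {𝕜 X Z : Type*} [RCLike 𝕜] [NormedAddCommGroup X] [NormedSpace 𝕜 X]
  [NormedSpace ℝ X] [IsScalarTower ℝ 𝕜 X]
  [NormedAddCommGroup Z] [NormedSpace 𝕜 Z]

theorem exists_functional_sep {K : Set X} (hKc : IsClosed K) (hKconv : Convex ℝ K)
    (hKbal : Balanced 𝕜 K) (h0 : (0 : X) ∈ K) {x : X} (hx : x ∉ K) :
    ∃ g : X →L[𝕜] 𝕜, (∀ k ∈ K, ‖g k‖ ≤ 1) ∧ 1 < ‖g x‖ := by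
  obtain ⟨f, s, hf, hs⟩ := RCLike.geometric_hahn_banach_closed_point (𝕜 := 𝕜) hKconv hKc hx
  have hs0 : 0 < s := by simpa using hf 0 h0
  have hbound : ∀ k ∈ K, ‖f k‖ < s := by
    intro k hk
    by_cases hfk : f k = 0
    · rw [hfk, norm_zero]
      exact hs0
    · have hcn : ‖((‖f k‖ : ℝ) : 𝕜) / f k‖ = 1 := by
        rw [norm_div, RCLike.norm_ofReal, abs_norm, div_self (norm_ne_zero_iff.2 hfk)]
      have hck : (((‖f k‖ : ℝ) : 𝕜) / f k) • k ∈ K :=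
        hKbal _ hcn.le (Set.smul_mem_smul_set hk)
      have h1 := hf _ hck
      rw [map_smul, smul_eq_mul, div_mul_cancel₀ _ hfk, RCLike.ofReal_re] at h1
      exact h1
  refine ⟨((s⁻¹ : ℝ) : 𝕜) • f, ?_, ?_⟩
  · intro k hk
    have e : (((s⁻¹ : ℝ) : 𝕜) • f) k = ((s⁻¹ : ℝ) : 𝕜) * f k := rfl
    rw [e, norm_mul, RCLike.norm_ofReal, abs_of_pos (inv_pos.2 hs0), inv_mul_le_iff₀ hs0, mul_one]
    exact (hbound k hk).le
  · have e : (((s⁻¹ : ℝ) : 𝕜) • f) x = ((s⁻¹ : ℝ) : 𝕜) * f x := rfl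
    rw [e, norm_mul, RCLike.norm_ofReal, abs_of_pos (inv_pos.2 hs0), lt_inv_mul_iff₀ hs0, mul_one]
    exact hs.trans_le (RCLike.re_le_norm _)

theorem exists_next [CompleteSpace Z] (A : Z →L[𝕜] X) (hd : DenseRange A)
    (hns : ¬ Function.Surjective A)
    (n : ℕ) (φ : ℕ → X →L[𝕜] 𝕜) (u : ℕ → X) (hb : Biorth n φ u) {ε : ℝ} (hε : 0 < ε) :
    ∃ (ψ : X →L[𝕜] 𝕜) (v : X), ψ v = 1 ∧ ‖v‖ ≤ 1 ∧ (∀ i < n, φ i v = 0) ∧
      (∀ i < n, ψ (u i) = 0) ∧ ∀ z, ‖ψ (A z)‖ ≤ ε * ‖z‖ := by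
  obtain ⟨v, hv1, hv2, hv3⟩ := exists_small_notMem A hd hns n φ u hb hε
  have hbal : Balanced 𝕜 ((projAlong n φ u) '' (A '' closedBall 0 1)) := by
    intro c hc
    rintro _ ⟨_, ⟨_, ⟨z, hz, rfl⟩, rfl⟩, rfl⟩
    refine ⟨A (c • z), ⟨c • z, ?_, rfl⟩, ?_⟩
    · simp only [mem_closedBall, dist_zero_right] at hz ⊢
      rw [norm_smul]
      exact mul_le_one₀ hc (norm_nonneg _) hz
    · simp [map_smul]
  have hconv : Convex ℝ ((projAlong n φ u) '' (A '' closedBall 0 1)) := by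
    rintro _ ⟨_, ⟨z₁, hz₁, rfl⟩, rfl⟩ _ ⟨_, ⟨z₂, hz₂, rfl⟩, rfl⟩ a b ha hb hab
    refine ⟨A ((a : 𝕜) • z₁ + (b : 𝕜) • z₂), ⟨_, ?_, rfl⟩, ?_⟩
    · simp only [mem_closedBall, dist_zero_right] at hz₁ hz₂ ⊢
      calc ‖(a : 𝕜) • z₁ + (b : 𝕜) • z₂‖ ≤ ‖(a : 𝕜) • z₁‖ + ‖(b : 𝕜) • z₂‖ := norm_add_le _ _
        _ = a * ‖z₁‖ + b * ‖z₂‖ := by
          rw [norm_smul, norm_smul, RCLike.norm_ofReal, RCLike.norm_ofReal, abs_of_nonneg ha,
            abs_of_nonneg hb]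
        _ ≤ a * 1 + b * 1 := by gcongr
        _ = 1 := by rw [mul_one, mul_one, hab]
    · rw [map_add, map_add, map_smul, map_smul, map_smul, map_smul,
        RCLike.real_smul_eq_coe_smul (K := 𝕜), RCLike.real_smul_eq_coe_smul (K := 𝕜)]
  have h0 : (0 : X) ∈ closure ((projAlong n φ u) '' (A '' closedBall 0 1)) := by
    apply subset_closure
    exact ⟨A 0, ⟨0, by simp, rfl⟩, by simp⟩
  obtain ⟨g, hg1, hg2⟩ := exists_functional_sep (𝕜 := 𝕜) isClosed_closure hconv.closure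
    hbal.closure h0 hv3
  have hgv : g v ≠ 0 := by
    intro h
    rw [h, norm_zero] at hg2
    linarith
  have hPv : projAlong n φ u v = v := projAlong_of_ker hv2
  have hεne : (ε : 𝕜) ≠ 0 := by exact_mod_cast hε.ne'
  have hgz : ∀ z : Z, ‖g (projAlong n φ u (A z))‖ ≤ ‖z‖ := by
    intro z
    rcases eq_or_ne z 0 with rfl | hz
    · simp
    · have hz0 : 0 < ‖z‖ := norm_pos_iff.2 hz
      have hmem : projAlong n φ u (A (((‖z‖⁻¹ : ℝ) : 𝕜) • z)) ∈
          closure ((projAlong n φ u) '' (A '' closedBall 0 1)) := by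
        apply subset_closure
        refine ⟨_, ⟨_, ?_, rfl⟩, rfl⟩
        simp only [mem_closedBall, dist_zero_right]
        rw [norm_smul, RCLike.norm_ofReal, abs_of_pos (inv_pos.2 hz0), inv_mul_cancel₀ hz0.ne']
      have h1 := hg1 _ hmem
      rw [map_smul, map_smul, map_smul, norm_smul, RCLike.norm_ofReal,
        abs_of_pos (inv_pos.2 hz0), inv_mul_le_iff₀ hz0, mul_one] at h1
      exact h1
  refine ⟨((ε : 𝕜) / g v) • g.comp (projAlong n φ u), ((ε : 𝕜)⁻¹) • v, ?_, ?_, ?_, ?_, ?_⟩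
  · have e : (((ε : 𝕜) / g v) • g.comp (projAlong n φ u)) (((ε : 𝕜)⁻¹) • v)
        = ((ε : 𝕜) / g v) * g (projAlong n φ u (((ε : 𝕜)⁻¹) • v)) := rfl
    rw [e, map_smul, map_smul, hPv, smul_eq_mul]
    field_simp
  · rw [norm_smul, norm_inv, RCLike.norm_ofReal, abs_of_pos hε, inv_mul_le_iff₀ hε, mul_one]
    exact hv1.le
  · intro i hi
    rw [map_smul, hv2 i hi, smul_zero]
  · intro i hi
    have e : (((ε : 𝕜) / g v) • g.comp (projAlong n φ u)) (u i)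
        = ((ε : 𝕜) / g v) * g (projAlong n φ u (u i)) := rfl
    rw [e, projAlong_u hb hi, map_zero, mul_zero]
  · intro z
    have e : (((ε : 𝕜) / g v) • g.comp (projAlong n φ u)) (A z)
        = ((ε : 𝕜) / g v) * g (projAlong n φ u (A z)) := rfl
    rw [e, norm_mul, norm_div, RCLike.norm_ofReal, abs_of_pos hε]
    have h1 : ε / ‖g v‖ ≤ ε := by
      rw [div_le_iff₀ (by linarith)]
      nlinarith
    calc ε / ‖g v‖ * ‖g (projAlong n φ u (A z))‖ ≤ ε * ‖z‖ := by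
          apply mul_le_mul h1 (hgz z) (norm_nonneg _) hε.le

/-- Invariant of the recursive construction. -/
def Good (A : Z →L[𝕜] X) (n : ℕ) (φ : ℕ → X →L[𝕜] 𝕜) (u : ℕ → X) : Prop :=
  Biorth n φ u ∧ (∀ i < n, ‖u i‖ ≤ 1) ∧ ∀ i < n, ∀ z, ‖φ i (A z)‖ ≤ (1 / 2) ^ i * ‖z‖

theorem good_step [CompleteSpace Z] (A : Z →L[𝕜] X) (hd : DenseRange A)
    (hns : ¬ Function.Surjective A)
    (n : ℕ) (φ : ℕ → X →L[𝕜] 𝕜) (u : ℕ → X) (h : Good A n φ u) :
    ∃ (ψ : X →L[𝕜] 𝕜) (v : X), Good A (n + 1) (Function.update φ n ψ) (Function.update u n v) := by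
  obtain ⟨hb, hu, hφ⟩ := h
  obtain ⟨ψ, v, h1, h2, h3, h4, h5⟩ := exists_next A hd hns n φ u hb
    (ε := (1 / 2) ^ n) (by positivity)
  refine ⟨ψ, v, ?_, ?_, ?_⟩
  · intro i hi j hj
    rcases Nat.lt_succ_iff_lt_or_eq.1 hi with hi' | rfl
    · rcases Nat.lt_succ_iff_lt_or_eq.1 hj with hj' | rfl
      · rw [Function.update_of_ne hi'.ne, Function.update_of_ne hj'.ne]
        exact hb i hi' j hj'
      · rw [Function.update_of_ne hi'.ne, Function.update_self, if_neg hi'.ne]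
        exact h3 i hi'
    · rcases Nat.lt_succ_iff_lt_or_eq.1 hj with hj' | rfl
      · rw [Function.update_self, Function.update_of_ne hj'.ne, if_neg hj'.ne']
        exact h4 j hj'
      · rw [Function.update_self, Function.update_self, if_pos rfl]
        exact h1
  · intro i hi
    rcases Nat.lt_succ_iff_lt_or_eq.1 hi with hi' | rfl
    · rw [Function.update_of_ne hi'.ne]
      exact hu i hi'
    · rw [Function.update_self]
      exact h2
  · intro i hi z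
    rcases Nat.lt_succ_iff_lt_or_eq.1 hi with hi' | rfl
    · rw [Function.update_of_ne hi'.ne]
      exact hφ i hi' z
    · rw [Function.update_self]
      exact h5 z

theorem exists_biorth_seq [CompleteSpace Z] (A : Z →L[𝕜] X) (hd : DenseRange A)
    (hns : ¬ Function.Surjective A) :
    ∃ (Φ : ℕ → X →L[𝕜] 𝕜) (U : ℕ → X), (∀ i j, Φ i (U j) = if i = j then 1 else 0) ∧
      (∀ i, ‖U i‖ ≤ 1) ∧ ∀ i z, ‖Φ i (A z)‖ ≤ (1 / 2) ^ i * ‖z‖ := by
  classical
  have step : ∀ (n : ℕ) (p : {p : (ℕ → X →L[𝕜] 𝕜) × (ℕ → X) // Good A n p.1 p.2}),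
      ∃ (ψ : X →L[𝕜] 𝕜) (v : X),
        Good A (n + 1) (Function.update p.1.1 n ψ) (Function.update p.1.2 n v) :=
    fun n p => good_step A hd hns n p.1.1 p.1.2 p.2
  choose ψ v hψv using step
  have good0 : Good A 0 (fun _ => (0 : X →L[𝕜] 𝕜)) (fun _ => (0 : X)) := by
    refine ⟨?_, ?_, ?_⟩
    · intro i hi
      exact absurd hi (Nat.not_lt_zero i)
    · intro i hi
      exact absurd hi (Nat.not_lt_zero i)
    · intro i hi
      exact absurd hi (Nat.not_lt_zero i)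
  let s : (n : ℕ) → {p : (ℕ → X →L[𝕜] 𝕜) × (ℕ → X) // Good A n p.1 p.2} := fun n =>
    Nat.rec ⟨(fun _ => 0, fun _ => 0), good0⟩
      (fun n p => ⟨(Function.update p.1.1 n (ψ n p), Function.update p.1.2 n (v n p)), hψv n p⟩) n
  have hs_succ : ∀ n, (s (n + 1)).1 =
      (Function.update (s n).1.1 n (ψ n (s n)), Function.update (s n).1.2 n (v n (s n))) :=
    fun n => rfl
  have hcoh : ∀ m k, k < m → (s m).1.1 k = (s (k + 1)).1.1 k ∧ (s m).1.2 k = (s (k + 1)).1.2 k := by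
    intro m
    induction m with
    | zero => intro k hk; exact absurd hk (Nat.not_lt_zero k)
    | succ m ih =>
      intro k hk
      rcases Nat.lt_succ_iff_lt_or_eq.1 hk with hk' | rfl
      · have := ih k hk'
        rw [hs_succ m]
        simp only
        rw [Function.update_of_ne hk'.ne, Function.update_of_ne hk'.ne]
        exact this
      · exact ⟨rfl, rfl⟩
  refine ⟨fun k => (s (k + 1)).1.1 k, fun k => (s (k + 1)).1.2 k, ?_, ?_, ?_⟩
  · intro i j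
    have hi : i < max i j + 1 := Nat.lt_succ_of_le (le_max_left i j)
    have hj : j < max i j + 1 := Nat.lt_succ_of_le (le_max_right i j)
    have h1 := (s (max i j + 1)).2.1 i hi j hj
    rw [(hcoh _ i hi).1, (hcoh _ j hj).2] at h1
    exact h1
  · intro i
    exact (s (i + 1)).2.2.1 i (Nat.lt_succ_self i)
  · intro i z
    exact (s (i + 1)).2.2.2 i (Nat.lt_succ_self i) z

end sep

end Vale.Agent.H35.SepQuot
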