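import Vale.Agent.H35.SepQuot.OpRange2

namespace Vale.Agent.H35.SepQuot

open Set Filter Topology TopologicalSpace Metric

section final

variable {𝕜 X Z : Type*} [RCLike 𝕜] [NormedAddCommGroup X] [NormedSpace 𝕜 X]
  [NormedSpace ℝ X] [IsScalarTower ℝ 𝕜 X]
  [NormedAddCommGroup Z] [NormedSpace 𝕜 Z]

theorem hasSepQuotient_of_denseRange_aux [CompleteSpace X] [CompleteSpace Z] (A : Z →L[𝕜] X)
    (hd : DenseRange A) (hns : ¬ Function.Surjective A) : HasSepQuotient 𝕜 X := by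
  obtain ⟨Φ, U, hb, hU, hΦ⟩ := exists_biorth_seq A hd hns
  apply hasSepQuotient_of_triangular Φ U
  · intro n j hnj
    rw [hb j n, if_neg hnj.ne']
  · intro n
    rw [hb n n, if_pos rfl]
  · rw [Metric.dense_iff]
    intro x ε hε
    obtain ⟨z, hz⟩ := hd.exists_dist_lt x (half_pos hε)
    obtain ⟨m, hm⟩ : ∃ m : ℕ, (1 / 2 : ℝ) ^ m * (‖z‖ * 2) < ε / 2 := by
      have h1 : Tendsto (fun m : ℕ => (1 / 2 : ℝ) ^ m * (‖z‖ * 2)) atTop (𝓝 (0 * (‖z‖ * 2))) :=
        (tendsto_pow_atTop_nhds_zero_of_lt_one (by norm_num) (by norm_num)).mul_const _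
      rw [zero_mul] at h1
      exact ((tendsto_order.1 h1).2 _ (half_pos hε)).exists
    have ht : ∀ j : ℕ, ‖Φ (j + m) (A z) • U (j + m)‖ ≤ (1 / 2 : ℝ) ^ m * ‖z‖ * (1 / 2) ^ j := by
      intro j
      rw [norm_smul]
      calc ‖Φ (j + m) (A z)‖ * ‖U (j + m)‖ ≤ ((1 / 2) ^ (j + m) * ‖z‖) * 1 :=
            mul_le_mul (hΦ _ z) (hU _) (norm_nonneg _) (by positivity)
        _ = (1 / 2 : ℝ) ^ m * ‖z‖ * (1 / 2) ^ j := by
          rw [pow_add]
          ring
    have hsumg : HasSum (fun j : ℕ => (1 / 2 : ℝ) ^ m * ‖z‖ * (1 / 2) ^ j)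
        ((1 / 2 : ℝ) ^ m * ‖z‖ * 2) := hasSum_geometric_two.mul_left _
    have hsum : Summable fun j : ℕ => Φ (j + m) (A z) • U (j + m) :=
      Summable.of_norm_bounded hsumg.summable ht
    have hnorm : ‖∑' j : ℕ, Φ (j + m) (A z) • U (j + m)‖ ≤ (1 / 2 : ℝ) ^ m * ‖z‖ * 2 :=
      tsum_of_norm_bounded hsumg ht
    refine ⟨A z - ∑' j : ℕ, Φ (j + m) (A z) • U (j + m), ?_, ?_⟩
    · rw [mem_ball]
      have h2 : dist (A z - ∑' j : ℕ, Φ (j + m) (A z) • U (j + m)) (A z) ≤
          (1 / 2 : ℝ) ^ m * ‖z‖ * 2 := by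
        rw [dist_eq_norm]
        have : A z - ∑' j : ℕ, Φ (j + m) (A z) • U (j + m) - A z
            = - ∑' j : ℕ, Φ (j + m) (A z) • U (j + m) := by abel
        rw [this, norm_neg]
        exact hnorm
      have h3 : dist (A z) x < ε / 2 := by
        rw [dist_comm]
        exact hz
      calc dist (A z - ∑' j : ℕ, Φ (j + m) (A z) • U (j + m)) x
          ≤ dist (A z - ∑' j : ℕ, Φ (j + m) (A z) • U (j + m)) (A z) + dist (A z) x :=
            dist_triangle _ _ _
        _ < ε / 2 + ε / 2 := by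
          have h4 : (1 / 2 : ℝ) ^ m * ‖z‖ * 2 < ε / 2 := by
            rw [mul_assoc]
            exact hm
          linarith
        _ = ε := add_halves ε
    · apply mem_iUnion.2 ⟨m, ?_⟩
      intro j hj
      rw [map_sub, (Φ j).map_tsum hsum]
      have h5 : ∑' i : ℕ, Φ j (Φ (i + m) (A z) • U (i + m)) = Φ j (A z) := by
        rw [tsum_eq_single (j - m)]
        · rw [Nat.sub_add_cancel hj, map_smul, hb j j, if_pos rfl, smul_eq_mul, mul_one]
        · intro i hi
          have hne : j ≠ i + m := by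
            intro h
            apply hi
            rw [h, Nat.add_sub_cancel]
          rw [map_smul, hb j (i + m), if_neg hne, smul_zero]
      rw [h5, sub_self]

end final

theorem hasSepQuotient_of_denseRange_not_surjective {𝕜 X Z : Type*} [RCLike 𝕜]
    [NormedAddCommGroup X] [NormedSpace 𝕜 X] [CompleteSpace X]
    [NormedAddCommGroup Z] [NormedSpace 𝕜 Z] [CompleteSpace Z]
    (A : Z →L[𝕜] X) (hd : DenseRange A) (hns : ¬ Function.Surjective A) :
    HasSepQuotient 𝕜 X := by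
  letI : Module ℝ X := RestrictScalars.module ℝ 𝕜 X
  letI : IsScalarTower ℝ 𝕜 X := RestrictScalars.isScalarTower _ _ _
  letI : NormedSpace ℝ X := NormedSpace.restrictScalars _ 𝕜 _
  exact hasSepQuotient_of_denseRange_aux A hd hns

end Vale.Agent.H35.SepQuot
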