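import Vale.Agent.H35.SepQuot.OpRange3

namespace Vale.Agent.H35.SepQuot

open Set Filter Topology TopologicalSpace Metric

variable {𝕜 X : Type*} [RCLike 𝕜] [NormedAddCommGroup X] [NormedSpace 𝕜 X] [CompleteSpace X]

/-- Auxiliary: the chain case for the subspace. -/
theorem chain_subspace (Y : Submodule 𝕜 X) (hY : IsClosed (Y : Set X))
    (W : ℕ → Submodule 𝕜 X) (hmono : Monotone W) (hcl : ∀ n, IsClosed (W n : Set X))
    (hne : ∀ n, W n ≠ ⊤) (hdense : Dense (⋃ n, (W n : Set X))) (n₀ : ℕ)
    (hsum : ∀ n, n₀ ≤ n → ∀ x : X, ∃ w ∈ W n, ∃ y ∈ Y, w + y = x) :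
    HasSepQuotient 𝕜 Y := by
  classical
  have hWc : CompleteSpace (W n₀) := (hcl n₀).completeSpace_coe
  have hYc : CompleteSpace Y := hY.completeSpace_coe
  let J : ℕ → Submodule 𝕜 Y := fun n => (W (n + n₀)).comap Y.subtype
  have hJmono : Monotone J := by
    intro a b hab
    exact Submodule.comap_mono (hmono (Nat.add_le_add_right hab n₀))
  have hJmem : ∀ n (y : Y), y ∈ J n ↔ (y : X) ∈ W (n + n₀) := fun n y => Iff.rfl
  apply hasSepQuotient_of_chain J hJmono
  · intro n
    exact (hcl (n + n₀)).preimage continuous_subtype_val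
  · intro n htop
    apply hne (n + n₀)
    apply top_unique
    intro x _
    obtain ⟨w, hw, y, hy, rfl⟩ := hsum (n + n₀) (Nat.le_add_left n₀ n) x
    have : (⟨y, hy⟩ : Y) ∈ J n := by
      rw [htop]
      trivial
    exact Submodule.add_mem _ hw this
  · -- density
    let Jc : Submodule 𝕜 Y := (⨆ n, J n).topologicalClosure
    have hJc_closed : IsClosed (Jc : Set Y) := Submodule.isClosed_topologicalClosure _
    have hJle : ∀ n, J n ≤ Jc := fun n =>
      (le_iSup J n).trans (Submodule.le_topologicalClosure _)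
    let Sm : (W n₀ × Y) →L[𝕜] X := (W n₀).subtypeL.coprod Y.subtypeL
    have hSm : ∀ p : W n₀ × Y, Sm p = (p.1 : X) + (p.2 : X) := fun p => rfl
    have hSsurj : Function.Surjective Sm := by
      intro x
      obtain ⟨w, hw, y, hy, rfl⟩ := hsum n₀ le_rfl x
      exact ⟨(⟨w, hw⟩, ⟨y, hy⟩), rfl⟩
    have hopen : IsOpenMap Sm := Sm.isOpenMap hSsurj
    let C : Set (W n₀ × Y) := {p | p.2 ∈ Jc}
    have hCcl : IsClosed C := hJc_closed.preimage continuous_snd
    have hsat : ∀ p p' : W n₀ × Y, p ∈ C → Sm p = Sm p' → p' ∈ C := by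
      intro p p' hp heq
      rw [hSm, hSm] at heq
      have h1 : ((p'.2 - p.2 : Y) : X) = (p.1 : X) - (p'.1 : X) := by
        push_cast
        rw [sub_eq_sub_iff_add_eq_add, heq, add_comm]
      have h2 : (p'.2 - p.2 : Y) ∈ J 0 := by
        rw [hJmem, h1, zero_add]
        exact Submodule.sub_mem _ p.1.2 p'.1.2
      have h3 : p'.2 = p.2 + (p'.2 - p.2) := by abel
      show p'.2 ∈ Jc
      rw [h3]
      exact Submodule.add_mem _ hp (hJle 0 h2)
    have hTcl : IsClosed (Sm '' C) := by
      have hcompl : (Sm '' C)ᶜ = Sm '' Cᶜ := by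
        ext x
        constructor
        · intro hx
          obtain ⟨p, rfl⟩ := hSsurj x
          refine ⟨p, ?_, rfl⟩
          intro hp
          exact hx ⟨p, hp, rfl⟩
        · rintro ⟨p', hp', rfl⟩ ⟨p, hp, heq⟩
          exact hp' (hsat p p' hp heq)
      rw [← isOpen_compl_iff, hcompl]
      exact hopen _ hCcl.isOpen_compl
    have hTdense : Dense (Sm '' C) := by
      apply hdense.mono
      apply iUnion_subset
      intro m x hx
      have hx' : x ∈ W (max m n₀) := hmono (le_max_left m n₀) hx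
      obtain ⟨w, hw, y, hy, rfl⟩ := hsum n₀ le_rfl x
      refine ⟨(⟨w, hw⟩, ⟨y, hy⟩), ?_, rfl⟩
      show (⟨y, hy⟩ : Y) ∈ Jc
      apply hJle (max m n₀ - n₀)
      rw [hJmem, Nat.sub_add_cancel (le_max_right m n₀)]
      have hw' : w ∈ W (max m n₀) := hmono (le_max_right m n₀) hw
      have : y = w + y - w := by abel
      show y ∈ W (max m n₀)
      rw [this]
      exact Submodule.sub_mem _ hx' hw'
    have hTuniv : Sm '' C = univ := by
      rw [← hTcl.closure_eq]
      exact hTdense.closure_eq
    have hJc_top : ∀ y : Y, y ∈ Jc := by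
      intro y
      have hy : (y : X) ∈ Sm '' C := by
        rw [hTuniv]
        trivial
      obtain ⟨p, hp, hpe⟩ := hy
      have := hsat p (0, y) hp (by rw [hpe, hSm]; simp)
      exact this
    have hcoe : ((⨆ n, J n : Submodule 𝕜 Y) : Set Y) = ⋃ n, (J n : Set Y) :=
      Submodule.coe_iSup_of_chain ⟨J, hJmono⟩
    have hcl_eq : closure (⋃ n, (J n : Set Y)) = univ := by
      rw [← hcoe, ← Submodule.topologicalClosure_coe]
      ext y
      simp only [mem_univ, iff_true]
      exact hJc_top y
    exact dense_iff_closure_eq.2 hcl_eq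

theorem threeSpace (Y : Submodule 𝕜 X) (hY : IsClosed (Y : Set X)) (h : HasSepQuotient 𝕜 X) :
    HasSepQuotient 𝕜 Y ∨ HasSepQuotient 𝕜 (X ⧸ Y) := by
  classical
  have := hY
  obtain ⟨W, hmono, hcl, hne, hdense⟩ := exists_chain_of_hasSepQuotient h
  by_cases hV : ∀ n, ((W n).map Y.mkQ).topologicalClosure ≠ ⊤
  · right
    apply hasSepQuotient_of_chain (fun n => ((W n).map Y.mkQ).topologicalClosure)
    · intro a b hab
      exact Submodule.topologicalClosure_mono (Submodule.map_mono (hmono hab))
    · intro n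
      exact Submodule.isClosed_topologicalClosure _
    · exact hV
    · have himg : Dense (Y.mkQ '' (⋃ n, (W n : Set X))) :=
        (Submodule.mkQ_surjective Y).denseRange.dense_image (Y.mkQL).continuous hdense
      apply himg.mono
      rintro _ ⟨x, hx, rfl⟩
      obtain ⟨n, hn⟩ := mem_iUnion.1 hx
      apply mem_iUnion.2 ⟨n, ?_⟩
      apply Submodule.le_topologicalClosure
      exact Submodule.mem_map_of_mem hn
  · have hV' : ∃ n₀, ((W n₀).map Y.mkQ).topologicalClosure = ⊤ := by
      by_contra hcon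
      exact hV fun n hn => hcon ⟨n, hn⟩
    obtain ⟨n₀, hn₀⟩ := hV'
    by_cases hsurj : ∀ n, n₀ ≤ n → Function.Surjective (Y.mkQL.comp (W n).subtypeL)
    · left
      apply chain_subspace Y hY W hmono hcl hne hdense n₀
      intro n hn x
      obtain ⟨w, hw⟩ := hsurj n hn (Y.mkQ x)
      refine ⟨w, w.2, x - w, ?_, by abel⟩
      have h1 : Y.mkQ (w : X) = Y.mkQ x := hw
      have h2 : Y.mkQ (x - w) = 0 := by
        rw [map_sub, h1, sub_self]
      exact (Submodule.Quotient.mk_eq_zero Y).1 h2
    · right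
      have hsurj' : ∃ n, n₀ ≤ n ∧ ¬ Function.Surjective (Y.mkQL.comp (W n).subtypeL) := by
        by_contra hcon
        apply hsurj
        intro n hn
        by_contra hns
        exact hcon ⟨n, hn, hns⟩
      obtain ⟨n, hn, hns⟩ := hsurj'
      have hWc : CompleteSpace (W n) := (hcl n).completeSpace_coe
      apply hasSepQuotient_of_denseRange_not_surjective (Y.mkQL.comp (W n).subtypeL) ?_ hns
      have hrange : Set.range (Y.mkQL.comp (W n).subtypeL) = ((W n).map Y.mkQ : Set (X ⧸ Y)) := by
        ext z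
        constructor
        · rintro ⟨w, rfl⟩
          exact ⟨w, w.2, rfl⟩
        · rintro ⟨w, hw, rfl⟩
          exact ⟨⟨w, hw⟩, rfl⟩
      have htop : ((W n).map Y.mkQ).topologicalClosure = ⊤ := by
        apply top_unique
        rw [← hn₀]
        exact Submodule.topologicalClosure_mono (Submodule.map_mono (hmono hn))
      rw [DenseRange, hrange, dense_iff_closure_eq, ← Submodule.topologicalClosure_coe, htop]
      rfl

end Vale.Agent.H35.SepQuot
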